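import Vale.Agent.P088.H833.JE.Defs

/-!
# P088, theorem JE: row JE_FIN (`RowNEAR` and `K.FinJ` give `FinJE`)
-/

open MeasureTheory Set Filter Topology
open scoped ContDiff Matrix

noncomputable section

namespace Vale.Agent.P088.LR.H941

open Vale.Agent.P088.LR Vale.Agent.P088.LR.B Vale.Agent.P088.LR.CF Vale.Agent.P088.LR.U
  Vale.Agent.P088.LR.H158 Vale.Agent.P088.H639 Vale.Agent.P088.LR.JE

variable {n N : ℕ}

theorem cl_le {F : Type*} [NormedAddCommGroup F] [NormedSpace ℝ F] {k k' : ℕ} {ε ε' : ℝ}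
    {f : V n → F} (hk : k ≤ k') (hε : ε' ≤ ε) (h : Cl k' ε' f) : Cl k ε f :=
  fun l hl x => (h l (hl.trans hk) x).trans hε

/-- The energy depends only on the values on the domain. -/
theorem en_congr {ρ : V n → ℝ} (hρ : Continuous ρ) {g g' : MF n} {A A' : Cn n N}
    (hg : ∀ x, 0 ≤ ρ x → g' x = g x) (hA : ∀ i x, 0 ≤ ρ x → A' i x = A i x)
    (u v : V n → Fin N → ℂ) : en (Om ρ) g' A' u v = en (Om ρ) g A u v := by
  have hm : MeasurableSet (Om ρ) := (isOpen_lt continuous_const hρ).measurableSet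
  unfold en
  refine setIntegral_congr_fun hm fun x hx => ?_
  have hx' : 0 ≤ ρ x := le_of_lt hx
  have hs : sg g' x = sg g x := by simp only [sg, hg x hx']
  simp only [cd, hs, hA _ x hx']

theorem hr_congr {ρ : V n → ℝ} (hρ : Continuous ρ) {g g' : MF n} {A A' : Cn n N}
    (hg : ∀ x, 0 ≤ ρ x → g' x = g x) (hA : ∀ i x, 0 ≤ ρ x → A' i x = A i x)
    {f u : V n → Fin N → ℂ} (h : Hr (Om ρ) g A f u) : Hr (Om ρ) g' A' f u :=
  ⟨h.1, h.2.1, fun φ h1 h2 => (en_congr hρ hg hA u φ).trans (h.2.2 φ h1 h2)⟩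

/-- The data depend only on the values of the second pair on the domain. -/
theorem sdu_congr {ρ : V n → ℝ} (hρ : Continuous ρ) {g₁ g g' : MF n} {A₁ A A' : Cn n N}
    (hg : ∀ x, 0 ≤ ρ x → g' x = g x) (hA : ∀ i x, 0 ≤ ρ x → A' i x = A i x)
    (h : SDU (Om ρ) g₁ A₁ g A) : SDU (Om ρ) g₁ A₁ g' A' := by
  intro f k hf hk
  obtain ⟨u, v, u', v', h1, h2, h3, h4, h5⟩ := h f k hf hk
  exact ⟨u, v, u', v', h1, h2, hr_congr hρ hg hA h3, hr_congr hρ hg hA h4,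
    h5.trans (en_congr hρ hg hA u' v').symm⟩

theorem rowFINJE : RowFINJE := by
  intro hN hJ n N hn hN1 ρ hρ B
  obtain ⟨k', ε', hε', HJ⟩ := hJ n N hn hN1 ρ hρ
  obtain ⟨k, ε, hε, HN⟩ := hN n N hn hN1 ρ hρ B k' ε' hε'
  refine ⟨max k k', min ε ε', lt_min hε hε', fun c A₁ g A₂ hc hg hd => ?_⟩
  have hc1 : Bc k ε c A₁ := ⟨hc.sm, hc.pos, cl_le (le_max_left _ _) (min_le_left _ _) hc.nc, hc.su,
    fun i a b => cl_le (le_max_left _ _) (min_le_left _ _) (hc.na i a b)⟩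
  have hg1 : Sc k B ε g A₂ := ⟨hg.sm, hg.pd, fun i j l hl x => hg.bg i j l (hl.trans (le_max_left _ _)) x,
    hg.dg, fun i j x => (hg.ng i j x).trans (min_le_left _ _), hg.su,
    fun i a b l hl x => hg.ba i a b l (hl.trans (le_max_left _ _)) x,
    fun i x a b => (hg.na i x a b).trans (min_le_left _ _)⟩
  obtain ⟨g', A', h1, h2, h3, h4, h5, h6, h7⟩ := HN c A₁ g A₂ hc1 hg1 hd
  obtain ⟨Φ, Ψ, U, i1, i2, i3, i4, i5, i6, i7, i8, i9⟩ := HJ c g' hc.sm hc.pos h1 h2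
    (cl_le (le_max_right _ _) (min_le_right _ _) hc.nc) h4 A₁ A' hc.su h5
    (fun i a b => cl_le (le_max_right _ _) (min_le_right _ _) (hc.na i a b)) h7
    (sdu_congr hρ.sm.continuous h3 h6 hd)
  refine ⟨Φ, Ψ, U, i1, i2, i3, i4, i5, i6, i7, fun x hx => ?_, ⟨i9.1.1, i9.1.2.1, ?_⟩, i9.2⟩
  · rw [← h3 x hx]
    exact i8 x hx
  · intro i x hx
    rw [← h6 i x (le_of_lt hx)]
    exact i9.1.2.2 i x hx

end Vale.Agent.P088.LR.H941
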